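import Vale.Agent.P069.Main

theorem Vale.Agent.Results.P069.Counterexample.result :
    ∃ (X : Type) (_ : NormedAddCommGroup X) (_ : NormedSpace ℝ X),
      CompleteSpace X ∧ ¬ FiniteDimensional ℝ X ∧
      Function.Surjective (NormedSpace.inclusionInDoubleDual ℝ X) ∧
      Vale.Agent.P069.AMUCRenormable X ∧ ¬ Vale.Agent.P069.AUCRenormable X :=
  ⟨Vale.Agent.P069.XX, inferInstance, inferInstance, inferInstance,
    fun _ => Vale.Agent.P069.not_auc_XX Vale.Agent.P069.auc_of_finiteDimensional,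
    Vale.Agent.P069.reflexive_XX, Vale.Agent.P069.amuc_XX, Vale.Agent.P069.not_auc_XX⟩
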